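import Vale.Agent.P171.Lim2

/-!
P171: a bounded, stable, radial pair potential on `ℝ³`, with `|φ(r)| ≤ C r^{-3-ε}` for large `r`
(two-sided temperedness), whose pressure `z ↦ Π(β, z)` is not differentiable at some `z > 0`.
-/

open MeasureTheory Set Filter Topology
open scoped ENNReal

namespace Vale.Agent.Results.P171.KacTowerDecay

/-- Euclidean three-space. -/
abbrev R3 := EuclideanSpace ℝ (Fin 3)

/-- The cube `Λ_L = [0, L]^3`. -/
def cube (L : ℝ) : Set R3 := {x | ∀ i, 0 ≤ x i ∧ x i ≤ L}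

/-- `U_N(x_1, …, x_N) = ∑_{i<j} φ(|x_i - x_j|)`. -/
noncomputable def energy (φ : ℝ → ℝ) {N : ℕ} (x : Fin N → R3) : ℝ :=
  ∑ i : Fin N, ∑ j ∈ Finset.Ioi i, φ ‖x i - x j‖

/-- Stability: `U_N ≥ -B N` for all `N` and all configurations of distinct points. -/
def Stable (φ : ℝ → ℝ) : Prop :=
  ∃ B : ℝ, ∀ (N : ℕ) (x : Fin N → R3), Function.Injective x → -(B * N) ≤ energy φ x

/-- Two-sided temperedness: `|φ(r)| ≤ C r^{-3-ε}` for `r ≥ R₀`. -/
def AbsTempered (φ : ℝ → ℝ) : Prop :=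
  ∃ C ε R₀ : ℝ, 0 < C ∧ 0 < ε ∧ 0 < R₀ ∧ ∀ r, R₀ ≤ r → |φ r| ≤ C * r ^ (-3 - ε)

/-- Boundedness. -/
def Bounded (φ : ℝ → ℝ) : Prop := ∃ M : ℝ, ∀ r, |φ r| ≤ M

/-- Canonical partition function `Z_{L,N}(β)`. -/
noncomputable def Z (φ : ℝ → ℝ) (β L : ℝ) (N : ℕ) : ℝ :=
  (N.factorial : ℝ)⁻¹ *
    ∫ x in (Set.univ.pi fun _ : Fin N => cube L), Real.exp (-β * energy φ x)

/-- Grand canonical partition function. -/
noncomputable def Xi (φ : ℝ → ℝ) (β L z : ℝ) : ℝ := ∑' N : ℕ, z ^ N * Z φ β L N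

open Vale.Agent.P171

lemma energy_eq (φ : ℝ → ℝ) {N : ℕ} (x : Fin N → R3) :
    pairSum φ (ms x) = 2 * energy φ x + N * φ 0 := by
  classical
  rw [pairSum_ms]
  unfold energy
  have h1 : ∀ i : Fin N, ∑ j, φ (dist (x i) (x j)) =
      ∑ j ∈ Finset.Iio i, φ (dist (x i) (x j)) + φ 0 +
        ∑ j ∈ Finset.Ioi i, φ (dist (x i) (x j)) := by
    intro i
    have hu : (Finset.univ : Finset (Fin N)) = Finset.Iio i ∪ {i} ∪ Finset.Ioi i := by
      ext j
      simp only [Finset.mem_univ, Finset.mem_union, Finset.mem_Iio, Finset.mem_singleton,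
        Finset.mem_Ioi, true_iff]
      rcases lt_trichotomy j i with h | h | h
      · exact Or.inl (Or.inl h)
      · exact Or.inl (Or.inr h)
      · exact Or.inr h
    rw [hu, Finset.sum_union, Finset.sum_union]
    · simp
    · rw [Finset.disjoint_singleton_right]; simp
    · rw [Finset.disjoint_left]
      intro j hj hj'
      simp only [Finset.mem_union, Finset.mem_Iio, Finset.mem_singleton] at hj
      have := Finset.mem_Ioi.mp hj'
      rcases hj with h | h
      · exact absurd this (not_lt.mpr h.le)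
      · rw [h] at this; exact lt_irrefl _ this
  simp_rw [h1, Finset.sum_add_distrib]
  have h2 : ∑ i : Fin N, ∑ j ∈ Finset.Iio i, φ (dist (x i) (x j)) =
      ∑ i : Fin N, ∑ j ∈ Finset.Ioi i, φ (dist (x i) (x j)) := by
    rw [Finset.sum_comm' (t' := Finset.univ) (s' := fun j => Finset.Ioi j)
      (by intro i j; simp)]
    refine Finset.sum_congr rfl (fun i _ => Finset.sum_congr rfl (fun j _ => ?_))
    rw [dist_comm]
  rw [h2]
  simp only [Finset.sum_const, Finset.card_univ, Fintype.card_fin, nsmul_eq_mul]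
  simp only [dist_eq_norm]
  ring

lemma exp_arg (φ : ℝ → ℝ) {N : ℕ} (x : Fin N → R3) {z : ℝ} (hz : 0 < z) :
    Real.exp (HH (Real.log z + φ 0 / 2) 0 φ (ms x)) = z ^ N * Real.exp (-1 * energy φ x) := by
  have h : HH (Real.log z + φ 0 / 2) 0 φ (ms x) = N * Real.log z + -1 * energy φ x := by
    unfold HH
    rw [card_ms, Fintype.card_fin, energy_eq]
    ring
  rw [h, Real.exp_add, Real.exp_nat_mul, Real.exp_log hz]

section

variable {A : ℝ} {χ : ℝ → ℝ}

lemma energy_ge (h : Ok A χ) {N : ℕ} (x : Fin N → R3) :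
    -(pot A χ 0 / 2 * N) ≤ energy (pot A χ) x := by
  have h1 := pairSum_pot_ge h.att h.hA le_rfl x
  rw [energy_eq] at h1
  have h2 := sc_nonneg 1 0 x
  have h3 : 0 ≤ A / 2 * sc 1 0 x := by
    have := h.hA
    positivity
  linarith

lemma measurable_energy (h : Ok A χ) (N : ℕ) :
    Measurable fun x : Fin N → R3 => energy (pot A χ) x := by
  unfold energy
  have hm := measurable_pot h.att.meas A
  refine Finset.measurable_fun_sum _ (fun i _ => Finset.measurable_fun_sum _ (fun j _ => ?_))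
  exact hm.comp (by fun_prop)

lemma volume_pi_cube (L : ℝ) (N : ℕ) :
    volume (Set.univ.pi fun _ : Fin N => cube L) ≠ ⊤ := by
  rw [volume_pi_pi]
  refine ENNReal.prod_ne_top (fun i _ => ?_)
  have : volume (cube L) = ENNReal.ofReal L ^ 3 := volume_box L
  rw [this]
  exact ENNReal.pow_ne_top ENNReal.ofReal_ne_top

lemma integrable_boltz (h : Ok A χ) (L : ℝ) (N : ℕ) :
    IntegrableOn (fun x : Fin N → R3 => Real.exp (-1 * energy (pot A χ) x))
      (Set.univ.pi fun _ : Fin N => cube L) := by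
  have hv := volume_pi_cube L N
  refine Measure.integrableOn_of_bounded (M := Real.exp (pot A χ 0 / 2 * N)) hv ?_ ?_
  · exact (Real.measurable_exp.comp ((measurable_energy h N).const_mul (-1))).aestronglyMeasurable
  · refine Eventually.of_forall (fun x => ?_)
    rw [Real.norm_of_nonneg (Real.exp_pos _).le]
    refine Real.exp_le_exp.mpr ?_
    have := energy_ge h x
    linarith

lemma Z_nonneg (φ : ℝ → ℝ) (β L : ℝ) (N : ℕ) : 0 ≤ Z φ β L N := by
  unfold Z
  have : 0 ≤ ∫ x in (Set.univ.pi fun _ : Fin N => cube L), Real.exp (-β * energy φ x) :=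
    integral_nonneg (fun x => (Real.exp_pos _).le)
  positivity

lemma term_eq (h : Ok A χ) (L : ℝ) {z : ℝ} (hz : 0 < z) (N : ℕ) :
    ((N.factorial : ℝ≥0∞))⁻¹ *
      II (box L) (EG (HH (Real.log z + pot A χ 0 / 2) 0 (pot A χ))) N =
      ENNReal.ofReal (z ^ N * Z (pot A χ) 1 L N) := by
  have h1 : II (box L) (EG (HH (Real.log z + pot A χ 0 / 2) 0 (pot A χ))) N =
      ENNReal.ofReal (z ^ N * ∫ x in (Set.univ.pi fun _ : Fin N => cube L),
        Real.exp (-1 * energy (pot A χ) x)) := by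
    unfold II EG
    have h2 : ∀ x : Fin N → E,
        ENNReal.ofReal (Real.exp (HH (Real.log z + pot A χ 0 / 2) 0 (pot A χ) (ms x))) =
        ENNReal.ofReal (z ^ N * Real.exp (-1 * energy (pot A χ) x)) := by
      intro x
      rw [exp_arg (pot A χ) x hz]
    simp_rw [h2]
    rw [← integral_const_mul]
    rw [ofReal_integral_eq_lintegral_ofReal ((integrable_boltz h L N).const_mul _)
      (Eventually.of_forall (fun x => by positivity))]
    rfl
  rw [h1]
  have h3 : ((N.factorial : ℝ≥0∞))⁻¹ = ENNReal.ofReal ((N.factorial : ℝ)⁻¹) := by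
    rw [ENNReal.ofReal_inv_of_pos (by positivity), ENNReal.ofReal_natCast]
  rw [h3, ← ENNReal.ofReal_mul (by positivity)]
  congr 1
  unfold Z
  ring

lemma summable_Z (h : Ok A χ) {L : ℝ} (hL : 0 ≤ L) {z : ℝ} (hz : 0 < z) :
    Summable fun N : ℕ => z ^ N * Z (pot A χ) 1 L N := by
  have ht := XiE_ne_top h hL (Real.log z + pot A χ 0 / 2)
  unfold XiE GC at ht
  simp_rw [term_eq h L hz] at ht
  have hs := ENNReal.summable_toReal ht
  refine hs.congr (fun N => ?_)
  rw [ENNReal.toReal_ofReal]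
  have := Z_nonneg (pot A χ) 1 L N
  positivity

lemma log_Xi (h : Ok A χ) {L : ℝ} (hL : 0 ≤ L) {z : ℝ} (hz : 0 < z) :
    Real.log (Xi (pot A χ) 1 L z) = lnXi A χ L (Real.log z + pot A χ 0 / 2) := by
  unfold lnXi XiE GC
  simp_rw [term_eq h L hz]
  rw [← ENNReal.ofReal_tsum_of_nonneg (fun N => by
    have := Z_nonneg (pot A χ) 1 L N
    positivity) (summable_Z h hL hz), ENNReal.toReal_ofReal]
  · rfl
  · refine tsum_nonneg (fun N => ?_)
    have := Z_nonneg (pot A χ) 1 L N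
    positivity

end

/-- a bounded measurable radial function with a power bound is integrable on `ℝ³` -/
lemma integrable_of_decay {φ : ℝ → ℝ} (hm : Measurable φ) {M C R₀ ε : ℝ} (hε : 0 < ε)
    (hR₀ : 1 ≤ R₀) (hM : ∀ r, |φ r| ≤ M) (hC : 0 ≤ C)
    (hdec : ∀ r, R₀ ≤ r → |φ r| ≤ C * r ^ (-3 - ε)) :
    Integrable (fun x : R3 => φ ‖x‖) := by
  have hint : Integrable (fun x : R3 => (1 + ‖x‖) ^ (-(3 + ε))) := by
    refine integrable_one_add_norm ?_
    rw [finrank_euclideanSpace, Fintype.card_fin]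
    push_cast
    linarith
  have hM0 : 0 ≤ M := (abs_nonneg _).trans (hM 0)
  refine (hint.const_mul (M * (1 + R₀) ^ (3 + ε) + C * 2 ^ (3 + ε))).mono'
    (hm.comp measurable_norm).aestronglyMeasurable (Eventually.of_forall (fun x => ?_))
  rw [Real.norm_eq_abs]
  have hx := norm_nonneg x
  have hp : 0 < (1 + ‖x‖) ^ (-(3 + ε)) := Real.rpow_pos_of_pos (by linarith) _
  have h2 : (0 : ℝ) ≤ 2 ^ (3 + ε) := by positivity
  have h3 : 0 ≤ (1 + R₀) ^ (3 + ε) := Real.rpow_nonneg (by linarith) _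
  rw [add_mul]
  rcases le_or_gt R₀ ‖x‖ with h | h
  · have h4 : ‖x‖ ^ (-3 - ε) ≤ 2 ^ (3 + ε) * (1 + ‖x‖) ^ (-(3 + ε)) := by
      have hx1 : 1 ≤ ‖x‖ := hR₀.trans h
      have h5 : (2 * ‖x‖) ^ (-(3 + ε)) ≤ (1 + ‖x‖) ^ (-(3 + ε)) :=
        Real.rpow_le_rpow_of_nonpos (by linarith) (by linarith) (by linarith)
      have h6 : (2 * ‖x‖) ^ (-(3 + ε)) = 2 ^ (-(3 + ε)) * ‖x‖ ^ (-(3 + ε)) :=
        Real.mul_rpow (by norm_num) (by linarith)
      have h7 : (2 : ℝ) ^ (3 + ε) * 2 ^ (-(3 + ε)) = 1 := by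
        rw [← Real.rpow_add (by norm_num)]
        simp
      have h8 := mul_le_mul_of_nonneg_left h5 h2
      rw [h6, ← mul_assoc, h7, one_mul] at h8
      have e : -3 - ε = -(3 + ε) := by ring
      rw [e]
      exact h8
    have h9 := (hdec _ h).trans (mul_le_mul_of_nonneg_left h4 hC)
    have h10 : 0 ≤ M * (1 + R₀) ^ (3 + ε) * (1 + ‖x‖) ^ (-(3 + ε)) := by positivity
    have e2 : C * 2 ^ (3 + ε) * (1 + ‖x‖) ^ (-(3 + ε)) =
        C * (2 ^ (3 + ε) * (1 + ‖x‖) ^ (-(3 + ε))) := by ring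
    rw [e2]
    linarith
  · have h4 : 1 ≤ (1 + R₀) ^ (3 + ε) * (1 + ‖x‖) ^ (-(3 + ε)) := by
      have h5 : (1 + R₀) ^ (-(3 + ε)) ≤ (1 + ‖x‖) ^ (-(3 + ε)) :=
        Real.rpow_le_rpow_of_nonpos (by linarith) (by linarith) (by linarith)
      have h7 : (1 + R₀) ^ (3 + ε) * (1 + R₀) ^ (-(3 + ε)) = 1 := by
        rw [← Real.rpow_add (by linarith)]
        simp
      have h8 := mul_le_mul_of_nonneg_left h5 h3
      linarith
    have h9 : M * 1 ≤ M * ((1 + R₀) ^ (3 + ε) * (1 + ‖x‖) ^ (-(3 + ε))) :=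
      mul_le_mul_of_nonneg_left h4 hM0
    have h10 : 0 ≤ C * 2 ^ (3 + ε) * (1 + ‖x‖) ^ (-(3 + ε)) := by positivity
    have h11 := hM ‖x‖
    rw [mul_assoc M]
    linarith

/-- **Main theorem (P171, Q1: yes).** There is a bounded Borel measurable radial pair potential
`φ` on `ℝ³`, stable, with `|φ(r)| ≤ C r^{-3-ε}` for large `r` and absolutely integrable over `ℝ³`,
and a `β > 0`, such that the thermodynamic limit
`Π(z) = lim L⁻³ log ∑_N z^N Z_{L,N}(β)` exists for every `z > 0`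
and `z ↦ Π(z)` is not differentiable at some `z₀ > 0`. -/
theorem result :
    ∃ φ : ℝ → ℝ, Measurable φ ∧ Bounded φ ∧ Stable φ ∧ AbsTempered φ ∧
      Integrable (fun x : R3 => φ ‖x‖) ∧
      ∃ β : ℝ, 0 < β ∧
        (∀ (L : ℝ) (N : ℕ), IntegrableOn (fun x : Fin N → R3 => Real.exp (-β * energy φ x))
          (Set.univ.pi fun _ : Fin N => cube L)) ∧
        (∀ L z : ℝ, 0 ≤ L → 0 < z → Summable fun N : ℕ => z ^ N * Z φ β L N) ∧
        ∃ Pi : ℝ → ℝ,
          (∀ z : ℝ, 0 < z →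
            Tendsto (fun L : ℝ => (L ^ 3)⁻¹ * Real.log (Xi φ β L z)) atTop (𝓝 (Pi z))) ∧
          ∃ z₀ : ℝ, 0 < z₀ ∧ ¬ DifferentiableAt ℝ Pi z₀ := by
  have hok := ok_chi2
  set φ := pot AA chi2 with hφ
  have hchi0 : ∀ r, 0 ≤ chi2 r := hok.att.nonneg
  have hmeas : Measurable φ := measurable_pot hok.att.meas AA
  have hbd : ∀ r, |φ r| ≤ AA + 120000 / VR 20 := by
    intro r
    have h1 := hchi0 r
    have h2 := chi2_le r
    have h3 : 0 ≤ AA * near r := mul_nonneg AA_pos.le (near_nonneg r)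
    have h4 : AA * near r ≤ AA := by
      unfold near
      have := AA_pos
      split_ifs <;> linarith
    have h5 : 0 ≤ 120000 / VR 20 := le_trans h1 h2
    rw [hφ]
    unfold pot
    rw [abs_le]
    constructor <;> linarith
  have hV := VR_one_pos
  set C : ℝ := 60000 / VR 1 * 2 ^ ((3 + 1 / 32 : ℝ)) with hCdef
  have hC0 : 0 < C := by positivity
  have hdec : ∀ r, 3 * yy 0 ^ 16 ≤ r → |φ r| ≤ C * r ^ (-3 - (1 / 32 : ℝ)) := by
    intro r hr
    have hy : (1 : ℝ) ≤ yy 0 ^ 16 := one_le_pow₀ (by have := yy_ge_million 0; linarith)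
    have hr2 : 2 * yy 0 ^ 16 < r := by linarith
    have hr0 : 0 < r := by linarith
    have h1 := chi2_decay hr2
    have h2 : φ r = - chi2 r := by
      rw [hφ]
      unfold pot near
      rw [if_neg (by linarith)]
      ring
    rw [h2, abs_neg, abs_of_nonneg (hchi0 r)]
    refine h1.trans (le_of_eq ?_)
    rw [hCdef, Real.div_rpow hr0.le (by norm_num), Real.rpow_neg (by norm_num : (0 : ℝ) ≤ 2)]
    have e : -3 - (1 / 32 : ℝ) = -(3 + 1 / 32) := by ring
    rw [e]
    field_simp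
  have hR1 : (1 : ℝ) ≤ 3 * yy 0 ^ 16 := by
    have hy : (1 : ℝ) ≤ yy 0 ^ 16 := one_le_pow₀ (by have := yy_ge_million 0; linarith)
    linarith
  refine ⟨φ, hmeas, ⟨_, hbd⟩, ?_, ?_, ?_, 1, one_pos, ?_, ?_, ?_⟩
  · -- stable
    exact ⟨pot AA chi2 0 / 2, fun N x _ => energy_ge hok x⟩
  · -- tempered
    exact ⟨C, 1 / 32, 3 * yy 0 ^ 16, hC0, by norm_num, by linarith, hdec⟩
  · exact integrable_of_decay hmeas (by norm_num) hR1 hbd hC0.le hdec
  · intro L N
    exact integrable_boltz hok L N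
  · intro L z hL hz
    exact summable_Z hok hL hz
  · refine ⟨fun z => PP AA chi2 (Real.log z + φ 0 / 2), ?_, ?_⟩
    · intro z hz
      have h := tendsto_PP hok (Real.log z + φ 0 / 2)
      refine h.congr' ?_
      filter_upwards [eventually_gt_atTop (0 : ℝ)] with L hL
      rw [log_Xi hok hL.le hz]
    · obtain ⟨ν, hl, hr⟩ := exists_kink2
      have hc := continuous_of_convex (PP_convexOn hok)
      have hnd : ¬ DifferentiableAt ℝ (PP AA chi2) ν :=
        not_diff_of_kink hc (by norm_num) hl hr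
      refine ⟨Real.exp (ν - φ 0 / 2), Real.exp_pos _, fun hd => hnd ?_⟩
      have hcomp : DifferentiableAt ℝ ((fun z => PP AA chi2 (Real.log z + φ 0 / 2)) ∘
          fun y => Real.exp (y - φ 0 / 2)) ν := by
        refine DifferentiableAt.comp ν hd ?_
        exact (differentiableAt_id.sub_const _).exp
      have e : ((fun z => PP AA chi2 (Real.log z + φ 0 / 2)) ∘
          fun y => Real.exp (y - φ 0 / 2)) = PP AA chi2 := by
        funext y
        simp only [Function.comp, Real.log_exp]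
        congr 1
        ring
      rwa [e] at hcomp

end Vale.Agent.Results.P171.KacTowerDecay
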